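import Vale.Agent.Lib.P034.Defs

/-!
# P034: rounding fractional covers supported on a locally sparse family that is closed under
unions of intersecting members
-/

namespace Vale.Agent.Lib.P034

open Finset


/-- dyadic lower bound -/
lemma dyadic_lower (x : ℝ) (hx : x ≤ 1) (N : ℕ) :
    x ≤ ∑ j ∈ range N, (if (1/2:ℝ)^(j+1) ≤ x then (1/2:ℝ)^j else 0) + (1/2:ℝ)^N := by
  induction N with
  | zero => simpa using hx
  | succ N ih =>
    rw [sum_range_succ]
    by_cases h : (1/2:ℝ)^(N+1) ≤ x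
    · rw [if_pos h]
      have : (0:ℝ) ≤ (1/2:ℝ)^(N+1) := by positivity
      linarith
    · rw [if_neg h]
      push Not at h
      have h0 : 0 ≤ ∑ j ∈ range N, (if (1/2:ℝ)^(j+1) ≤ x then (1/2:ℝ)^j else 0) := by
        apply sum_nonneg
        intro j _
        split_ifs
        · positivity
        · exact le_rfl
      linarith

/-- dyadic upper bound -/
lemma dyadic_upper (N : ℕ) : ∀ (x : ℝ), 0 ≤ x →
    ∑ j ∈ range N, (if (1/2:ℝ)^(j+1) ≤ x then (1/2:ℝ)^j else 0) ≤ min (4 * x) 2 := by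
  induction N with
  | zero => intro x hx; simp; linarith
  | succ N ih =>
    intro x hx
    rw [sum_range_succ']
    have key : ∑ j ∈ range N, (if (1/2:ℝ)^(j+1+1) ≤ x then (1/2:ℝ)^(j+1) else 0)
        = (1/2) * ∑ j ∈ range N, (if (1/2:ℝ)^(j+1) ≤ 2 * x then (1/2:ℝ)^j else 0) := by
      rw [mul_sum]
      apply sum_congr rfl
      intro j _
      have : ((1/2:ℝ)^(j+1+1) ≤ x) ↔ ((1/2:ℝ)^(j+1) ≤ 2 * x) := by
        rw [pow_succ (1/2:ℝ) (j+1)]
        constructor <;> intro h <;> linarith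
      by_cases h : (1/2:ℝ)^(j+1+1) ≤ x
      · rw [if_pos h, if_pos (this.1 h)]; ring
      · rw [if_neg h, if_neg (fun h' => h (this.2 h'))]; ring
    rw [key]
    have ih' := ih (2 * x) (by linarith)
    have h1 := le_trans ih' (min_le_left _ _)
    have h2 := le_trans ih' (min_le_right _ _)
    by_cases h : (1/2:ℝ)^(0+1) ≤ x
    · rw [if_pos h]
      have hx' : (1/2:ℝ) ≤ x := by simpa using h
      apply le_min <;> norm_num <;> linarith
    · rw [if_neg h]
      apply le_min <;> linarith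

lemma sum_succ_div_two_pow (N : ℕ) :
    ∑ j ∈ range N, (1/2:ℝ)^j * ((j:ℝ)+1) = 4 - (2 * (N:ℝ) + 4) * (1/2:ℝ)^N := by
  induction N with
  | zero => norm_num
  | succ N ih =>
    rw [sum_range_succ, ih, pow_succ]
    push_cast
    ring

lemma sum_third_pow (N : ℕ) : ∑ j ∈ range N, (1/3:ℝ)^(j+1) ≤ 1/2 := by
  have : ∑ j ∈ range N, (1/3:ℝ)^(j+1) = 1/2 - (1/2) * (1/3:ℝ)^N := by
    induction N with
    | zero => norm_num
    | succ N ih =>
      rw [sum_range_succ, ih, pow_succ]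
      ring
  rw [this]
  have : (0:ℝ) ≤ (1/3:ℝ)^N := by positivity
  linarith



lemma min_sum_le {ι : Type*} [DecidableEq ι] (M : Finset ι) (w : ι → ℝ) (hw : ∀ A ∈ M, 0 ≤ w A) :
    min (∑ A ∈ M, w A) 1 ≤ ∑ A ∈ M, min (w A) 1 := by
  induction M using Finset.induction_on with
  | empty => simp
  | insert a M ha ih =>
    rw [sum_insert ha, sum_insert ha]
    have ih' := ih (fun A hA => hw A (mem_insert_of_mem hA))
    have h0 : 0 ≤ w a := hw a (mem_insert_self _ _)
    have h1 : 0 ≤ ∑ A ∈ M, w A := sum_nonneg (fun A hA => hw A (mem_insert_of_mem hA))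
    rcases le_total (w a) 1 with h | h
    · rw [min_eq_left h]
      rcases le_total (∑ A ∈ M, w A) 1 with h' | h'
      · rw [min_eq_left h'] at ih'
        exact le_trans (min_le_left _ _) (by linarith)
      · rw [min_eq_right h'] at ih'
        exact le_trans (min_le_right _ _) (by linarith)
    · rw [min_eq_right h]
      have : 0 ≤ ∑ A ∈ M, min (w A) 1 := by
        apply sum_nonneg
        intro A hA
        exact le_min (hw A (mem_insert_of_mem hA)) zero_le_one
      exact le_trans (min_le_right _ _) (by linarith)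

lemma class_sum_le {ι : Type*} (R : Finset ι) (w c : ι → ℝ) (hw : ∀ A ∈ R, 0 ≤ w A)
    (hc : ∀ A ∈ R, 0 ≤ c A) (N : ℕ) :
    ∑ j ∈ range N, (1/2:ℝ)^j * ∑ A ∈ R.filter (fun A => (1/2:ℝ)^(j+1) ≤ w A), c A
      ≤ 4 * ∑ A ∈ R, w A * c A := by
  have e1 : ∑ j ∈ range N, (1/2:ℝ)^j * ∑ A ∈ R.filter (fun A => (1/2:ℝ)^(j+1) ≤ w A), c A
      = ∑ A ∈ R, c A * ∑ j ∈ range N, (if (1/2:ℝ)^(j+1) ≤ w A then (1/2:ℝ)^j else 0) := by
    have : ∀ j ∈ range N, (1/2:ℝ)^j * ∑ A ∈ R.filter (fun A => (1/2:ℝ)^(j+1) ≤ w A), c A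
        = ∑ A ∈ R, c A * (if (1/2:ℝ)^(j+1) ≤ w A then (1/2:ℝ)^j else 0) := by
      intro j _
      rw [sum_filter, mul_sum]
      apply sum_congr rfl
      intro A _
      split_ifs <;> ring
    rw [sum_congr rfl this, sum_comm]
    apply sum_congr rfl
    intro A _
    rw [mul_sum]
  rw [e1, mul_sum]
  apply sum_le_sum
  intro A hA
  have := le_trans (dyadic_upper N (w A) (hw A hA)) (min_le_left _ _)
  have hcA := hc A hA
  nlinarith

lemma pigeonhole {ι : Type*} [DecidableEq ι] (M : Finset ι) (w : ι → ℝ) (hw : ∀ A ∈ M, 0 ≤ w A)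
    (hsum : 1/2 ≤ ∑ A ∈ M, w A) (N : ℕ) (y : ℕ → ℝ)
    (hy : ∑ j ∈ range N, (1/2:ℝ)^j * y j ≤ 3/8) (hN : (M.card : ℝ) * (1/2:ℝ)^N ≤ 1/16) :
    ∃ j ∈ range N, y j ≤ ((M.filter (fun A => (1/2:ℝ)^(j+1) ≤ w A)).card : ℝ) := by
  by_contra hcon
  push Not at hcon
  have h1 : (1/2:ℝ) ≤ min (∑ A ∈ M, w A) 1 := le_min hsum (by norm_num)
  have h2 := min_sum_le M w hw
  have h3 : ∑ A ∈ M, min (w A) 1 ≤ ∑ A ∈ M,
      (∑ j ∈ range N, (if (1/2:ℝ)^(j+1) ≤ w A then (1/2:ℝ)^j else 0) + (1/2:ℝ)^N) := by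
    apply sum_le_sum
    intro A _
    have := dyadic_lower (min (w A) 1) (min_le_right _ _) N
    refine le_trans this ?_
    gcongr with j _
    have hle : (1/2:ℝ)^(j+1) ≤ 1 := pow_le_one₀ (by norm_num) (by norm_num)
    by_cases h : (1/2:ℝ)^(j+1) ≤ w A
    · rw [if_pos h, if_pos (le_min h hle)]
    · rw [if_neg h, if_neg (fun h' => h (le_trans h' (min_le_left _ _)))]
  have h4 : ∑ A ∈ M,
      (∑ j ∈ range N, (if (1/2:ℝ)^(j+1) ≤ w A then (1/2:ℝ)^j else 0) + (1/2:ℝ)^N)
      = ∑ j ∈ range N, (1/2:ℝ)^j * ((M.filter (fun A => (1/2:ℝ)^(j+1) ≤ w A)).card : ℝ)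
        + (M.card : ℝ) * (1/2:ℝ)^N := by
    rw [sum_add_distrib, sum_comm, sum_const, nsmul_eq_mul]
    congr 1
    apply sum_congr rfl
    intro j _
    rw [← sum_filter, sum_const, nsmul_eq_mul, mul_comm]
  have h5 : ∑ j ∈ range N, (1/2:ℝ)^j * ((M.filter (fun A => (1/2:ℝ)^(j+1) ≤ w A)).card : ℝ)
      ≤ ∑ j ∈ range N, (1/2:ℝ)^j * y j := by
    apply sum_le_sum
    intro j hj
    apply mul_le_mul_of_nonneg_left (hcon j hj).le (by positivity)
  linarith



/-- generating function bound for elementary symmetric sums -/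
lemma esymm_le {ι : Type*} [DecidableEq ι] (s : Finset ι) (x : ι → ℝ) (hx : ∀ i ∈ s, 0 ≤ x i)
    (T : ℝ) (hT : 0 < T) (k : ℕ) :
    T ^ k * ∑ A ∈ powersetCard k s, ∏ i ∈ A, x i ≤ Real.exp (T * ∑ i ∈ s, x i) := by
  have h1 : T ^ k * ∑ A ∈ powersetCard k s, ∏ i ∈ A, x i
      = ∑ A ∈ powersetCard k s, ∏ i ∈ A, (T * x i) := by
    rw [mul_sum]
    apply sum_congr rfl
    intro A hA
    rw [prod_mul_distrib, prod_const, (mem_powersetCard.1 hA).2]
  have h2 : ∑ A ∈ powersetCard k s, ∏ i ∈ A, (T * x i) ≤ ∑ A ∈ s.powerset, ∏ i ∈ A, (T * x i) := by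
    apply sum_le_sum_of_subset_of_nonneg (fun A hA => mem_powerset.2 (mem_powersetCard.1 hA).1)
    intro A hA _
    apply prod_nonneg
    intro i hi
    exact mul_nonneg hT.le (hx i (mem_powerset.1 hA hi))
  have h3 : ∑ A ∈ s.powerset, ∏ i ∈ A, (T * x i) = ∏ i ∈ s, (T * x i + 1) := by
    rw [prod_add_one]
  have h4 : ∏ i ∈ s, (T * x i + 1) ≤ ∏ i ∈ s, Real.exp (T * x i) := by
    apply prod_le_prod
    · intro i hi
      have := mul_nonneg hT.le (hx i hi)
      linarith
    · intro i _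
      exact Real.add_one_le_exp _
  rw [h1]
  calc _ ≤ _ := h2
    _ = _ := h3
    _ ≤ _ := h4
    _ = _ := by rw [← Real.exp_sum, mul_sum]

variable {X : Type*} [DecidableEq X]

/-- decomposition of the members of `R` inside `H` into maximal pieces -/
lemma exists_pieces (R : Finset (Finset X)) (hU : ClosedUnderIntersectingUnions R)
    (H : Finset X) :
    ∃ M : Finset (Finset X), M ⊆ R ∧ (∀ A ∈ M, A ⊆ H) ∧
      ((M : Set (Finset X)).PairwiseDisjoint id) ∧
      ∀ S ∈ R, S ⊆ H → ∃ A ∈ M, S ⊆ A := by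
  classical
  set RH := R.filter (fun A => A ⊆ H) with hRH
  refine ⟨RH.filter (fun A => Maximal (fun B => B ∈ RH) A), ?_, ?_, ?_, ?_⟩
  · intro A hA
    exact (mem_filter.1 (mem_filter.1 hA).1).1
  · intro A hA
    exact (mem_filter.1 (mem_filter.1 hA).1).2
  · intro A hA B hB hAB
    have hA' := mem_filter.1 (mem_coe.1 hA)
    have hB' := mem_filter.1 (mem_coe.1 hB)
    have hA1 := mem_filter.1 hA'.1
    have hB1 := mem_filter.1 hB'.1
    by_contra hnd
    have hne : (A ∩ B).Nonempty := by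
      rw [Function.onFun, id, id, disjoint_iff_inter_eq_empty] at hnd
      exact nonempty_iff_ne_empty.2 hnd
    have hmem : A ∪ B ∈ RH := by
      rw [hRH, mem_filter]
      exact ⟨hU A hA1.1 B hB1.1 hne, union_subset hA1.2 hB1.2⟩
    have h1 : A ∪ B ≤ A := hA'.2.2 hmem (subset_union_left)
    have h2 : A ∪ B ≤ B := hB'.2.2 hmem (subset_union_right)
    apply hAB
    apply Subset.antisymm
    · exact fun x hx => h2 (mem_union_left _ hx)
    · exact fun x hx => h1 (mem_union_right _ hx)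
  · intro S hS hSH
    have hmem : S ∈ RH := by
      rw [hRH, mem_filter]; exact ⟨hS, hSH⟩
    obtain ⟨A, hSA, hA⟩ := RH.exists_le_maximal hmem
    exact ⟨A, mem_filter.2 ⟨hA.1, hA⟩, hSA⟩




lemma sum_supersets_le (R : Finset (Finset X)) (b : ℕ) (hb : 1 ≤ b) (hG : LocallySparse R b)
    (p : ℝ) (hp0 : 0 ≤ p) (hp1 : p ≤ 1) (S : Finset X) (hS : S.Nonempty) :
    ∑ A ∈ R.filter (fun A => S ⊆ A), (p / (2 * b)) ^ A.card ≤ p ^ S.card := by
  obtain ⟨x, hx⟩ := hS
  have hb' : (1:ℝ) ≤ b := by exact_mod_cast hb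
  have hbpos : (0:ℝ) < b := by linarith
  set q := p / (2 * b) with hq
  have hq0 : 0 ≤ q := by positivity
  set M := R.sup card + 1 with hM
  set s := S.card with hs
  have hs1 : 1 ≤ s := card_pos.2 ⟨x, hx⟩
  have step1 : ∑ A ∈ R.filter (fun A => S ⊆ A), q ^ A.card
      ≤ ∑ A ∈ R.filter (fun A => x ∈ A ∧ s ≤ A.card), q ^ A.card := by
    apply sum_le_sum_of_subset_of_nonneg
    · intro A hA
      rw [mem_filter] at hA ⊢
      exact ⟨hA.1, hA.2 hx, card_le_card hA.2⟩
    · intro A _ _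
      positivity
  have hmaps : ∀ A ∈ R.filter (fun A => x ∈ A ∧ s ≤ A.card), A.card ∈ Ico s M := by
    intro A hA
    rw [mem_filter] at hA
    rw [mem_Ico]
    refine ⟨hA.2.2, ?_⟩
    have : A.card ≤ R.sup card := le_sup (f := card) hA.1
    omega
  have step2 : ∑ A ∈ R.filter (fun A => x ∈ A ∧ s ≤ A.card), q ^ A.card
      = ∑ r ∈ Ico s M, ∑ A ∈ (R.filter (fun A => x ∈ A ∧ s ≤ A.card)) with A.card = r,
          q ^ A.card := (sum_fiberwise_of_maps_to hmaps _).symm
  have step3 : ∀ r ∈ Ico s M,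
      ∑ A ∈ (R.filter (fun A => x ∈ A ∧ s ≤ A.card)) with A.card = r, q ^ A.card
        ≤ (p / 2) ^ r := by
    intro r _
    have e1 : ∑ A ∈ (R.filter (fun A => x ∈ A ∧ s ≤ A.card)) with A.card = r, q ^ A.card
        = ∑ A ∈ (R.filter (fun A => x ∈ A ∧ s ≤ A.card)) with A.card = r, q ^ r := by
      apply sum_congr rfl
      intro A hA
      rw [(mem_filter.1 hA).2]
    rw [e1, sum_const, nsmul_eq_mul]
    have hcard : (((R.filter (fun A => x ∈ A ∧ s ≤ A.card)).filter (fun A => A.card = r)).card : ℝ)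
        ≤ (b:ℝ) ^ r := by
      have h1 : ((R.filter (fun A => x ∈ A ∧ s ≤ A.card)).filter (fun A => A.card = r)).card
          ≤ (R.filter (fun A => x ∈ A ∧ A.card = r)).card := by
        apply card_le_card
        intro A hA
        rw [mem_filter, mem_filter] at hA
        rw [mem_filter]
        exact ⟨hA.1.1, hA.1.2.1, hA.2⟩
      exact_mod_cast le_trans h1 (hG x r)
    calc _ ≤ (b:ℝ) ^ r * q ^ r := by
            apply mul_le_mul_of_nonneg_right hcard (by positivity)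
      _ = (p / 2) ^ r := by
            rw [← mul_pow, hq]
            congr 1
            field_simp
  have hp2 : p / 2 < 1 := by linarith
  have step4 : ∑ r ∈ Ico s M, (p / 2) ^ r ≤ (p / 2) ^ s / (1 - p / 2) :=
    geom_sum_Ico_le_of_lt_one (by positivity) hp2
  have step5 : (p / 2) ^ s / (1 - p / 2) ≤ p ^ s := by
    rw [div_le_iff₀ (by linarith)]
    rw [div_pow]
    have h2s : (2:ℝ) ≤ 2 ^ s := by
      calc (2:ℝ) = 2 ^ 1 := by norm_num
        _ ≤ 2 ^ s := pow_le_pow_right₀ (by norm_num) hs1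
    have hps : 0 ≤ p ^ s := by positivity
    rw [div_le_iff₀ (by positivity)]
    have : (1:ℝ) ≤ (1 - p / 2) * 2 ^ s := by nlinarith
    calc p ^ s = p ^ s * 1 := by ring
      _ ≤ p ^ s * ((1 - p / 2) * 2 ^ s) := by
          apply mul_le_mul_of_nonneg_left this hps
      _ = _ := by ring
  calc _ ≤ _ := step1
    _ = _ := step2
    _ ≤ ∑ r ∈ Ico s M, (p / 2) ^ r := sum_le_sum step3
    _ ≤ _ := step4
    _ ≤ _ := step5




lemma sum_biUnion_le_sum {ι κ : Type*} [DecidableEq ι] [DecidableEq κ] (s : Finset ι)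
    (t : ι → Finset κ) (f : κ → ℝ) (hf : ∀ x, 0 ≤ f x) :
    ∑ x ∈ s.biUnion t, f x ≤ ∑ i ∈ s, ∑ x ∈ t i, f x := by
  induction s using Finset.induction_on with
  | empty => simp
  | insert a s ha ih =>
    rw [biUnion_insert, sum_insert ha]
    have h1 := sum_union_inter (s₁ := t a) (s₂ := s.biUnion t) (f := f)
    have h2 : 0 ≤ ∑ x ∈ t a ∩ s.biUnion t, f x := sum_nonneg (fun x _ => hf x)
    linarith

/-- weighted double counting -/
lemma weight_sum_le [Fintype X] (R : Finset (Finset X))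
    (p q : ℝ) (hp0 : 0 ≤ p)
    (hH : ∀ S ∈ R, ∑ A ∈ R.filter (fun A => S ⊆ A), q ^ A.card ≤ p ^ S.card)
    (g : Finset X → ℝ) (hg0 : ∀ S, 0 ≤ g S) :
    ∑ A ∈ R, (∑ S ∈ R.filter (fun S => S ⊆ A), g S) * q ^ A.card ≤ fcost g p := by
  have e1 : ∑ A ∈ R, (∑ S ∈ R.filter (fun S => S ⊆ A), g S) * q ^ A.card
      = ∑ S ∈ R, g S * ∑ A ∈ R.filter (fun A => S ⊆ A), q ^ A.card := by
    have : ∀ A ∈ R, (∑ S ∈ R.filter (fun S => S ⊆ A), g S) * q ^ A.card
        = ∑ S ∈ R.filter (fun S => S ⊆ A), g S * q ^ A.card := by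
      intro A _
      rw [sum_mul]
    rw [sum_congr rfl this]
    rw [sum_comm' (t' := R) (s' := fun S => R.filter (fun A => S ⊆ A))]
    · apply sum_congr rfl
      intro S _
      rw [mul_sum]
    · intro A S
      simp only [mem_filter]
      tauto
  rw [e1]
  calc _ ≤ ∑ S ∈ R, g S * p ^ S.card := by
        apply sum_le_sum
        intro S hS
        exact mul_le_mul_of_nonneg_left (hH S hS) (hg0 S)
    _ ≤ fcost g p := by
        unfold fcost
        apply sum_le_sum_of_subset_of_nonneg (subset_univ _)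
        intro S _ _
        exact mul_nonneg (hg0 S) (by positivity)


/-- lower bound for the total weight of the pieces of a member of `F` -/
lemma pieces_weight [Fintype X] (F : Set (Finset X)) (R : Finset (Finset X))
    (p : ℝ) (hp0 : 0 ≤ p) (g : Finset X → ℝ) (hg : IsFracCover g F)
    (hsupp : SupportedOn g R) (hcost : fcost g p ≤ 1/2)
    (H : Finset X) (hH : H ∈ F) (M : Finset (Finset X))
    (hMc : ∀ S ∈ R, S ⊆ H → ∃ A ∈ M, S ⊆ A) :
    1/2 ≤ ∑ A ∈ M, ∑ S ∈ R.filter (fun S => S ⊆ A), g S := by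
  have hg0 : ∀ S, 0 ≤ g S := fun S => (hg.1 S).1
  have h1 : 1 ≤ ∑ S ∈ H.powerset, g S := hg.2 H hH
  have hempty : g ∅ ≤ 1/2 := by
    have : g ∅ * p ^ (∅ : Finset X).card ≤ fcost g p := by
      unfold fcost
      exact single_le_sum (f := fun S : Finset X => g S * p ^ S.card)
        (fun S _ => mul_nonneg (hg0 S) (by positivity)) (mem_univ ∅)
    simp at this
    linarith
  have h2 : ∑ S ∈ H.powerset, g S
      ≤ g ∅ + ∑ S ∈ M.biUnion (fun A => R.filter (fun S => S ⊆ A)), g S := by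
    rw [← sum_filter_ne_zero]
    have hsub : (H.powerset.filter (fun S => g S ≠ 0))
        ⊆ insert ∅ (M.biUnion (fun A => R.filter (fun S => S ⊆ A))) := by
      intro S hS
      rw [mem_filter, mem_powerset] at hS
      rcases hsupp S hS.2 with h | h
      · rw [h]; exact mem_insert_self _ _
      · obtain ⟨A, hA, hSA⟩ := hMc S h hS.1
        apply mem_insert_of_mem
        rw [mem_biUnion]
        exact ⟨A, hA, mem_filter.2 ⟨h, hSA⟩⟩
    refine le_trans (sum_le_sum_of_subset_of_nonneg hsub (fun S _ _ => hg0 S)) ?_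
    by_cases hmem : ∅ ∈ M.biUnion (fun A => R.filter (fun S => S ⊆ A))
    · rw [insert_eq_of_mem hmem]
      linarith [hg0 ∅]
    · rw [sum_insert hmem]
  have h3 := sum_biUnion_le_sum M (fun A => R.filter (fun S => S ⊆ A)) g hg0
  linarith

/-- The weighted form of the rounding theorem: `q` is any density at which the cluster sums
`∑_{A ∈ R, S ⊆ A} q^{|A|}` are bounded by `p^{|S|}`. -/
theorem small_of_weighted [Fintype X]
    (F : Set (Finset X)) (R : Finset (Finset X))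
    (hne : ∅ ∉ R) (hU : ClosedUnderIntersectingUnions R)
    (p q : ℝ) (hp0 : 0 ≤ p) (hq0 : 0 ≤ q)
    (hH : ∀ S ∈ R, ∑ A ∈ R.filter (fun A => S ⊆ A), q ^ A.card ≤ p ^ S.card)
    (g : Finset X → ℝ) (hg : IsFracCover g F)
    (hsupp : SupportedOn g R) (hcost : fcost g p ≤ 1/2) :
    IsSmall F (q / 2^31) := by
  classical
  have hg0 : ∀ S, 0 ≤ g S := fun S => (hg.1 S).1
  set T : ℝ := 2^27 with hT
  have hTpos : 0 < T := by positivity
  set p' := q / 2^31 with hp'
  have hp'0 : 0 ≤ p' := by positivity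
  have hp'q : p' = q / (16 * T) := by
    rw [hp', hT]; norm_num
  set Gw : Finset X → ℝ := fun A => ∑ S ∈ R.filter (fun S => S ⊆ A), g S with hGw
  have hGw0 : ∀ A, 0 ≤ Gw A := fun A => sum_nonneg (fun S _ => hg0 S)
  have hA : ∑ A ∈ R, Gw A * q ^ A.card ≤ 1/2 :=
    le_trans (weight_sum_le R p q hp0 hH g hg0) hcost
  set N := R.card + 4 with hN
  set Rj : ℕ → Finset (Finset X) := fun j => R.filter (fun A => (1/2:ℝ)^(j+1) ≤ Gw A) with hRj
  set μ : ℕ → ℝ := fun j => ∑ A ∈ Rj j, q ^ A.card with hμ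
  have hμ0 : ∀ j, 0 ≤ μ j := fun j => sum_nonneg (fun A _ => by positivity)
  set y : ℕ → ℝ := fun j => μ j / 16 + ((j:ℝ)+1)/16 with hy
  set k : ℕ → ℕ := fun j => ⌈y j⌉₊ with hk
  have hysum : ∑ j ∈ range N, (1/2:ℝ)^j * y j ≤ 3/8 := by
    have e : ∑ j ∈ range N, (1/2:ℝ)^j * y j
        = (1/16) * ∑ j ∈ range N, (1/2:ℝ)^j * μ j
          + (1/16) * ∑ j ∈ range N, (1/2:ℝ)^j * ((j:ℝ)+1) := by
      rw [mul_sum, mul_sum, ← sum_add_distrib]
      apply sum_congr rfl
      intro j _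
      rw [hy]; ring
    have h1 : ∑ j ∈ range N, (1/2:ℝ)^j * μ j ≤ 4 * ∑ A ∈ R, Gw A * q ^ A.card :=
      class_sum_le R Gw (fun A => q ^ A.card) (fun A _ => hGw0 A) (fun A _ => by positivity) N
    have h2 : ∑ j ∈ range N, (1/2:ℝ)^j * ((j:ℝ)+1) ≤ 4 := by
      rw [sum_succ_div_two_pow]
      have : (0:ℝ) ≤ (2 * (N:ℝ) + 4) * (1/2:ℝ)^N := by positivity
      linarith
    rw [e]; linarith
  set fam : ℕ → Finset (Finset (Finset X)) := fun j =>
    (powersetCard (k j) (Rj j)).filter (fun 𝒜 => (𝒜 : Set (Finset X)).PairwiseDisjoint id) with hfam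
  refine ⟨((range N).sigma fam).image (fun z => z.2.biUnion id), ?_, ?_⟩
  · -- covering
    intro H hH
    obtain ⟨M, hMR, hMH, hMd, hMc⟩ := exists_pieces R hU H
    have hsum : 1/2 ≤ ∑ A ∈ M, Gw A := pieces_weight F R p hp0 g hg hsupp hcost H hH M hMc
    have hNM : (M.card : ℝ) * (1/2:ℝ)^N ≤ 1/16 := by
      have h1 : (M.card : ℝ) ≤ 2 ^ R.card := by
        have : M.card ≤ 2 ^ R.card := le_trans (card_le_card hMR) (Nat.lt_two_pow_self).le
        exact_mod_cast this
      have h2 : (1/2:ℝ)^N = (1/2:ℝ)^R.card * (1/16) := by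
        rw [hN, pow_add]; norm_num
      rw [h2]
      have h3 : (2:ℝ)^R.card * (1/2:ℝ)^R.card = 1 := by
        rw [← mul_pow]; norm_num
      have h4 : (0:ℝ) ≤ (1/2:ℝ)^R.card := by positivity
      nlinarith
    obtain ⟨j, hj, hjk⟩ := pigeonhole M Gw (fun A _ => hGw0 A) hsum N y hysum hNM
    have hkj : k j ≤ (M.filter (fun A => (1/2:ℝ)^(j+1) ≤ Gw A)).card := Nat.ceil_le.2 hjk
    obtain ⟨𝒜, h𝒜sub, h𝒜card⟩ := exists_subset_card_eq hkj
    refine ⟨𝒜.biUnion id, ?_, ?_⟩
    · rw [mem_image]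
      refine ⟨⟨j, 𝒜⟩, ?_, rfl⟩
      rw [mem_sigma]
      refine ⟨hj, ?_⟩
      rw [hfam, mem_filter, mem_powersetCard]
      refine ⟨⟨?_, h𝒜card⟩, ?_⟩
      · intro A hA
        have := mem_filter.1 (h𝒜sub hA)
        exact mem_filter.2 ⟨hMR this.1, this.2⟩
      · apply hMd.subset
        intro A hA
        exact mem_coe.2 (mem_filter.1 (h𝒜sub (mem_coe.1 hA))).1
    · rw [biUnion_subset]
      intro A hA
      exact hMH A (mem_filter.1 (h𝒜sub hA)).1
  · -- cost
    unfold cost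
    have s1 : ∑ S ∈ ((range N).sigma fam).image (fun z => z.2.biUnion id), p' ^ S.card
        ≤ ∑ z ∈ (range N).sigma fam, p' ^ (z.2.biUnion id).card :=
      sum_image_le_of_nonneg (fun u _ => by positivity)
    have s2 : ∑ z ∈ (range N).sigma fam, p' ^ (z.2.biUnion id).card
        = ∑ j ∈ range N, ∑ 𝒜 ∈ fam j, p' ^ (𝒜.biUnion id).card := by
      rw [sum_sigma]
    have s3 : ∀ j ∈ range N, ∑ 𝒜 ∈ fam j, p' ^ (𝒜.biUnion id).card ≤ (1/3:ℝ)^(j+1) := by
      intro j _
      have t1 : ∑ 𝒜 ∈ fam j, p' ^ (𝒜.biUnion id).card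
          = ∑ 𝒜 ∈ fam j, ∏ A ∈ 𝒜, p' ^ A.card := by
        apply sum_congr rfl
        intro 𝒜 h𝒜
        rw [hfam, mem_filter] at h𝒜
        rw [card_biUnion h𝒜.2, prod_pow_eq_pow_sum]
        rfl
      have t2 : ∑ 𝒜 ∈ fam j, ∏ A ∈ 𝒜, p' ^ A.card
          ≤ ∑ 𝒜 ∈ powersetCard (k j) (Rj j), ∏ A ∈ 𝒜, p' ^ A.card := by
        apply sum_le_sum_of_subset_of_nonneg (filter_subset _ _)
        intro 𝒜 _ _
        exact prod_nonneg (fun A _ => by positivity)
      have t3 := esymm_le (Rj j) (fun A => p' ^ A.card) (fun A _ => by positivity) T hTpos (k j)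
      have t4 : T * ∑ A ∈ Rj j, p' ^ A.card ≤ μ j / 16 := by
        have : ∀ A ∈ Rj j, p' ^ A.card ≤ q ^ A.card / (16 * T) := by
          intro A hA
          have hAne : 1 ≤ A.card := by
            rw [Nat.one_le_iff_ne_zero, Ne, card_eq_zero]
            rintro rfl
            exact hne (mem_filter.1 hA).1
          rw [hp'q, div_pow]
          apply div_le_div_of_nonneg_left (by positivity) (by positivity)
          calc (16 * T) = (16 * T) ^ 1 := by ring
            _ ≤ (16 * T) ^ A.card := by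
              apply pow_le_pow_right₀ _ hAne
              rw [hT]; norm_num
        calc T * ∑ A ∈ Rj j, p' ^ A.card ≤ T * ∑ A ∈ Rj j, q ^ A.card / (16 * T) := by
              apply mul_le_mul_of_nonneg_left (sum_le_sum this) hTpos.le
          _ = μ j / 16 := by
              rw [← sum_div, hμ]; field_simp
      have hyk : y j ≤ k j := Nat.le_ceil _
      have t5 : μ j / 16 ≤ k j := by
        have : μ j / 16 ≤ y j := by
          rw [hy]
          have : (0:ℝ) ≤ ((j:ℝ)+1)/16 := by positivity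
          linarith
        linarith
      have t6 : j + 1 ≤ 16 * k j := by
        have : ((j:ℝ)+1)/16 ≤ k j := by
          have : ((j:ℝ)+1)/16 ≤ y j := by
            rw [hy]
            have := hμ0 j
            simp only
            linarith
          linarith
        have h' : ((j:ℝ)+1) ≤ 16 * k j := by linarith
        exact_mod_cast h'
      have t7 : Real.exp (T * ∑ A ∈ Rj j, p' ^ A.card) ≤ 3 ^ (k j) := by
        calc Real.exp (T * ∑ A ∈ Rj j, p' ^ A.card) ≤ Real.exp (k j) :=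
              Real.exp_le_exp.2 (le_trans t4 t5)
          _ = Real.exp 1 ^ (k j) := by rw [← Real.exp_nat_mul]; simp
          _ ≤ 3 ^ (k j) := by
              apply pow_le_pow_left₀ (Real.exp_pos 1).le
              have := Real.exp_one_lt_d9
              linarith
      have t8 : ∑ 𝒜 ∈ powersetCard (k j) (Rj j), ∏ A ∈ 𝒜, p' ^ A.card ≤ (3 / T) ^ (k j) := by
        rw [div_pow, le_div_iff₀ (by positivity), mul_comm]
        exact le_trans t3 t7
      have t9 : (3 / T) ^ (k j) ≤ (1/3:ℝ)^(j+1) := by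
        have : 3 / T ≤ (1/3:ℝ)^16 := by
          rw [hT]; norm_num
        calc (3 / T) ^ (k j) ≤ ((1/3:ℝ)^16) ^ (k j) := by
              apply pow_le_pow_left₀ (by positivity) this
          _ = (1/3:ℝ)^(16 * k j) := by rw [← pow_mul]
          _ ≤ (1/3:ℝ)^(j+1) := by
              apply pow_le_pow_of_le_one (by norm_num) (by norm_num) t6
      rw [t1]
      exact le_trans t2 (le_trans t8 t9)
    calc _ ≤ _ := s1
      _ = _ := s2
      _ ≤ ∑ j ∈ range N, (1/3:ℝ)^(j+1) := sum_le_sum s3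
      _ ≤ 1/2 := sum_third_pow N


theorem small_of_fracCover_supportedOn [Fintype X]
    (F : Set (Finset X)) (R : Finset (Finset X)) (b : ℕ) (hb : 1 ≤ b)
    (hne : ∅ ∉ R) (hU : ClosedUnderIntersectingUnions R) (hG : LocallySparse R b)
    (p : ℝ) (hp0 : 0 ≤ p) (hp1 : p ≤ 1) (g : Finset X → ℝ) (hg : IsFracCover g F)
    (hsupp : SupportedOn g R) (hcost : fcost g p ≤ 1/2) :
    IsSmall F (p / (2^32 * b)) := by
  have hb' : (1:ℝ) ≤ b := by exact_mod_cast hb
  have hbpos : (0:ℝ) < b := by linarith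
  have h := small_of_weighted F R hne hU p (p / (2 * b)) hp0 (by positivity)
    (fun S hS => sum_supersets_le R b hb hG p hp0 hp1 S (by
      rw [nonempty_iff_ne_empty]
      rintro rfl
      exact hne hS)) g hg hsupp hcost
  have e : p / (2 * b) / 2^31 = p / (2^32 * b) := by
    field_simp
  rwa [e] at h

end Vale.Agent.Lib.P034
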