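import Mathlib

/-!
# P034: integral versus fractional expectation thresholds: basic definitions

`X` is a finite ground set, subsets of `X` are `Finset X`, families are sets of finsets.
The convention `p ^ 0 = 1` (also for `p = 0`) is the one built into the power of Mathlib.
-/

namespace Vale.Agent.Lib.P034

open Finset

variable {X : Type*}

/-- `G` covers `F`: every member of `F` contains some member of `G`. -/
def Covers (G : Finset (Finset X)) (F : Set (Finset X)) : Prop :=
  ∀ H ∈ F, ∃ S ∈ G, S ⊆ H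

/-- The cost `c_p(G) = ∑_{S ∈ G} p^{|S|}` of a family `G` at `p`. -/
noncomputable def cost (G : Finset (Finset X)) (p : ℝ) : ℝ :=
  ∑ S ∈ G, p ^ S.card

/-- `F` is `p`-small: some cover of `F` has cost at most `1/2` at `p`. -/
def IsSmall (F : Set (Finset X)) (p : ℝ) : Prop :=
  ∃ G : Finset (Finset X), Covers G F ∧ cost G p ≤ 1 / 2

/-- `g : 2^X → [0,1]` is a fractional cover of `F`: `∑_{S ⊆ H} g S ≥ 1` for every `H ∈ F`. -/
def IsFracCover (g : Finset X → ℝ) (F : Set (Finset X)) : Prop :=
  (∀ S, 0 ≤ g S ∧ g S ≤ 1) ∧ ∀ H ∈ F, 1 ≤ ∑ S ∈ H.powerset, g S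

/-- The cost `w(g,p) = ∑_{S ⊆ X} g S * p^{|S|}` of a fractional cover at `p`. -/
noncomputable def fcost [Fintype X] (g : Finset X → ℝ) (p : ℝ) : ℝ :=
  ∑ S : Finset X, g S * p ^ S.card

/-- `R` is closed under unions of intersecting members. -/
def ClosedUnderIntersectingUnions [DecidableEq X] (R : Finset (Finset X)) : Prop :=
  ∀ A ∈ R, ∀ B ∈ R, (A ∩ B).Nonempty → A ∪ B ∈ R

/-- Every point of `X` lies in at most `b ^ r` members of `R` of size `r`, for every `r`. -/
def LocallySparse [DecidableEq X] (R : Finset (Finset X)) (b : ℕ) : Prop :=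
  ∀ (x : X) (r : ℕ), (R.filter (fun A => x ∈ A ∧ A.card = r)).card ≤ b ^ r

/-- `g` vanishes outside `R` and the empty set. -/
def SupportedOn (g : Finset X → ℝ) (R : Finset (Finset X)) : Prop :=
  ∀ S, g S ≠ 0 → S = ∅ ∨ S ∈ R

end Vale.Agent.Lib.P034
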