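import Vale.Agent.Lib.P034.Defs

namespace Vale.Agent.Lib.P034

open Finset

variable {X : Type*} [DecidableEq X]

/-- `W` is closed under the members of `E` that lie inside `A`. -/
def ClosedIn (E : Finset (Finset X)) (A W : Finset X) : Prop :=
  ∀ S ∈ E, S ⊆ A → (S ∩ W).Nonempty → S ⊆ W

/-- `A` is a cluster of the hypergraph `E`: it is nonempty and no proper nonempty subset of `A`
is closed under the members of `E` inside `A`. -/
def IsCluster (E : Finset (Finset X)) (A : Finset X) : Prop :=
  A.Nonempty ∧ ∀ W ⊆ A, W.Nonempty → ClosedIn E A W → W = A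

lemma isCluster_of_mem (E : Finset (Finset X)) (S : Finset X) (hS : S ∈ E) (hne : S.Nonempty) :
    IsCluster E S := by
  refine ⟨hne, fun W hW hWne hcl => ?_⟩
  apply Subset.antisymm hW
  apply hcl S hS (Subset.refl _)
  rwa [inter_eq_right.2 hW]

lemma isCluster_union (E : Finset (Finset X)) (A B : Finset X) (hA : IsCluster E A)
    (hB : IsCluster E B) (hAB : (A ∩ B).Nonempty) : IsCluster E (A ∪ B) := by
  refine ⟨hA.1.mono subset_union_left, fun W hW hWne hcl => ?_⟩
  -- general step: if W meets a cluster C ⊆ A ∪ B then C ⊆ W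
  have key : ∀ C, IsCluster E C → C ⊆ A ∪ B → (W ∩ C).Nonempty → C ⊆ W := by
    intro C hC hCsub hWC
    have : W ∩ C = C := by
      apply hC.2 (W ∩ C) inter_subset_right hWC
      intro S hS hSC hSW
      apply subset_inter _ hSC
      apply hcl S hS (hSC.trans hCsub)
      obtain ⟨z, hz⟩ := hSW
      rw [mem_inter, mem_inter] at hz
      exact ⟨z, mem_inter.2 ⟨hz.1, hz.2.1⟩⟩
    rw [← this]; exact inter_subset_left
  obtain ⟨w, hw⟩ := hWne
  obtain ⟨z, hz⟩ := hAB
  rw [mem_inter] at hz
  have hboth : A ⊆ W ∧ B ⊆ W := by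
    rcases mem_union.1 (hW hw) with h | h
    · have hAW := key A hA subset_union_left ⟨w, mem_inter.2 ⟨hw, h⟩⟩
      exact ⟨hAW, key B hB subset_union_right ⟨z, mem_inter.2 ⟨hAW hz.1, hz.2⟩⟩⟩
    · have hBW := key B hB subset_union_right ⟨w, mem_inter.2 ⟨hw, h⟩⟩
      exact ⟨key A hA subset_union_left ⟨z, mem_inter.2 ⟨hBW hz.2, hz.1⟩⟩, hBW⟩
  exact Subset.antisymm hW (union_subset hboth.1 hboth.2)

/-- the exploration invariant -/
def Explored (E : Finset (Finset X)) (P U A : Finset X) : Prop :=
  U ⊆ A ∧ (∀ v ∈ P, ∀ S ∈ E, v ∈ S → S ⊆ A → S ⊆ U) ∧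
    ∀ W, U ⊆ W → W ⊆ A → ClosedIn E A W → W = A

lemma explored_eq (E : Finset (Finset X)) (U A : Finset X) (h : Explored E U U A) : A = U := by
  symm
  apply h.2.2 U (Subset.refl _) h.1
  intro S hS hSA hSU
  obtain ⟨v, hv⟩ := hSU
  rw [mem_inter] at hv
  exact h.2.1 v hv.2 S hS hv.1 hSA

lemma explored_step (E : Finset (Finset X)) (P U A : Finset X) (h : Explored E P U A)
    (v : X) :
    Explored E (insert v P) (U ∪ (E.filter (fun S => v ∈ S ∧ S ⊆ A)).biUnion id) A := by
  refine ⟨?_, ?_, ?_⟩
  · apply union_subset h.1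
    rw [biUnion_subset]
    intro S hS
    exact (mem_filter.1 hS).2.2
  · intro u hu S hS huS hSA
    rcases mem_insert.1 hu with rfl | hu
    · apply Subset.trans _ subset_union_right
      exact subset_biUnion_of_mem id (mem_filter.2 ⟨hS, huS, hSA⟩)
    · exact (h.2.1 u hu S hS huS hSA).trans subset_union_left
  · intro W hUW hWA hcl
    exact h.2.2 W (subset_union_left.trans hUW) hWA hcl

lemma card_explored_le [Fintype X] (E : Finset (Finset X)) (D : ℕ)
    (hD : ∀ x, (E.filter (fun S => x ∈ S)).card ≤ D) (r : ℕ) :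
    ∀ (k : ℕ) (P U : Finset X), P ⊆ U → r ≤ P.card + k →
      by classical exact
      ((univ : Finset (Finset X)).filter (fun A => A.card = r ∧ Explored E P U A)).card
        ≤ (2 ^ D) ^ k := by
  classical
  intro k
  induction k with
  | zero =>
    intro P U hPU hr
    have : (univ : Finset (Finset X)).filter (fun A => A.card = r ∧ Explored E P U A) ⊆ {U} := by
      intro A hA
      rw [mem_filter] at hA
      rw [mem_singleton]
      have h1 : U ⊆ A := hA.2.2.1
      have h2 : A.card ≤ U.card := by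
        have := card_le_card hPU
        omega
      exact (eq_of_subset_of_card_le h1 h2).symm
    simpa using card_le_card this
  | succ k ih =>
    intro P U hPU hr
    by_cases hEq : P = U
    · subst hEq
      have : (univ : Finset (Finset X)).filter (fun A => A.card = r ∧ Explored E P P A) ⊆ {P} := by
        intro A hA
        rw [mem_filter] at hA
        rw [mem_singleton]
        exact explored_eq E P A hA.2.2
      calc _ ≤ ({P} : Finset (Finset X)).card := card_le_card this
        _ = 1 := card_singleton _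
        _ ≤ (2 ^ D) ^ (k+1) := Nat.one_le_pow _ _ (by positivity)
    · obtain ⟨v, hvU, hvP⟩ : ∃ v ∈ U, v ∉ P := by
        by_contra hcon
        push Not at hcon
        exact hEq (Subset.antisymm hPU hcon)
      have hsub : (univ : Finset (Finset X)).filter (fun A => A.card = r ∧ Explored E P U A)
          ⊆ (E.filter (fun S => v ∈ S)).powerset.biUnion (fun 𝒟 =>
            (univ : Finset (Finset X)).filter
              (fun A => A.card = r ∧ Explored E (insert v P) (U ∪ 𝒟.biUnion id) A)) := by
        intro A hA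
        rw [mem_filter] at hA
        rw [mem_biUnion]
        refine ⟨E.filter (fun S => v ∈ S ∧ S ⊆ A), ?_, ?_⟩
        · rw [mem_powerset]
          intro S hS
          rw [mem_filter] at hS ⊢
          exact ⟨hS.1, hS.2.1⟩
        · rw [mem_filter]
          exact ⟨mem_univ _, hA.2.1, explored_step E P U A hA.2.2 v⟩
      calc _ ≤ _ := card_le_card hsub
        _ ≤ ∑ 𝒟 ∈ (E.filter (fun S => v ∈ S)).powerset, (2 ^ D) ^ k := by
            refine le_trans card_biUnion_le (sum_le_sum ?_)
            intro 𝒟 _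
            apply ih
            · apply insert_subset (mem_union_left _ hvU) (hPU.trans subset_union_left)
            · rw [card_insert_of_notMem hvP]; omega
        _ = 2 ^ (E.filter (fun S => v ∈ S)).card * (2 ^ D) ^ k := by
            rw [sum_const, card_powerset, smul_eq_mul]
        _ ≤ 2 ^ D * (2 ^ D) ^ k := by
            apply Nat.mul_le_mul_right
            exact Nat.pow_le_pow_right (by norm_num) (hD v)
        _ = (2 ^ D) ^ (k+1) := by ring



/-- a subfamily with the same union over `U` and at most as many members as new points -/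
lemma exists_small_subfamily (𝒟 : Finset (Finset X)) (U : Finset X) :
    ∃ 𝒟' ⊆ 𝒟, U ∪ 𝒟'.biUnion id = U ∪ 𝒟.biUnion id ∧
      U.card + 𝒟'.card ≤ (U ∪ 𝒟'.biUnion id).card := by
  classical
  have hch : ∀ z ∈ 𝒟.biUnion id \ U, ∃ S ∈ 𝒟, z ∈ S := by
    intro z hz
    rw [mem_sdiff, mem_biUnion] at hz
    obtain ⟨S, hS, hzS⟩ := hz.1
    exact ⟨S, hS, hzS⟩
  choose! f hf using hch
  refine ⟨(𝒟.biUnion id \ U).image f, ?_, ?_, ?_⟩
  · intro S hS
    obtain ⟨z, hz, rfl⟩ := mem_image.1 hS
    exact (hf z hz).1
  · have hEq : U ∪ ((𝒟.biUnion id \ U).image f).biUnion id = U ∪ 𝒟.biUnion id := by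
      apply Subset.antisymm
      · apply union_subset subset_union_left
        rw [biUnion_subset]
        intro S hS
        obtain ⟨z, hz, rfl⟩ := mem_image.1 hS
        exact (subset_biUnion_of_mem id (hf z hz).1).trans subset_union_right
      · apply union_subset subset_union_left
        intro z hz
        by_cases hzU : z ∈ U
        · exact mem_union_left _ hzU
        · apply mem_union_right
          have hz' : z ∈ 𝒟.biUnion id \ U := mem_sdiff.2 ⟨hz, hzU⟩
          rw [mem_biUnion]
          exact ⟨f z, mem_image_of_mem f hz', (hf z hz').2⟩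
    exact hEq
  · have hEq : U ∪ ((𝒟.biUnion id \ U).image f).biUnion id = U ∪ 𝒟.biUnion id := by
      apply Subset.antisymm
      · apply union_subset subset_union_left
        rw [biUnion_subset]
        intro S hS
        obtain ⟨z, hz, rfl⟩ := mem_image.1 hS
        exact (subset_biUnion_of_mem id (hf z hz).1).trans subset_union_right
      · apply union_subset subset_union_left
        intro z hz
        by_cases hzU : z ∈ U
        · exact mem_union_left _ hzU
        · apply mem_union_right
          have hz' : z ∈ 𝒟.biUnion id \ U := mem_sdiff.2 ⟨hz, hzU⟩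
          rw [mem_biUnion]
          exact ⟨f z, mem_image_of_mem f hz', (hf z hz').2⟩
    rw [hEq]
    have h1 : (U ∪ 𝒟.biUnion id).card = U.card + (𝒟.biUnion id \ U).card := by
      rw [← union_sdiff_self_eq_union, card_union_of_disjoint disjoint_sdiff]
    rw [h1]
    have := card_image_le (s := 𝒟.biUnion id \ U) (f := f)
    omega

lemma one_add_inv_pow_le (D d : ℕ) (hD : 1 ≤ D) (hd : d ≤ D) :
    (1 + (D:ℝ)⁻¹) ^ d ≤ 3 := by
  have hDpos : (0:ℝ) < D := by exact_mod_cast hD
  have h1 : (1 + (D:ℝ)⁻¹) ≤ Real.exp ((D:ℝ)⁻¹) := by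
    have := Real.add_one_le_exp ((D:ℝ)⁻¹)
    linarith
  have h0 : (1:ℝ) ≤ 1 + (D:ℝ)⁻¹ := by
    have : (0:ℝ) ≤ (D:ℝ)⁻¹ := by positivity
    linarith
  calc (1 + (D:ℝ)⁻¹) ^ d ≤ (1 + (D:ℝ)⁻¹) ^ D := pow_le_pow_right₀ h0 hd
    _ ≤ (Real.exp ((D:ℝ)⁻¹)) ^ D := pow_le_pow_left₀ (by linarith) h1 D
    _ = Real.exp 1 := by
        rw [← Real.exp_nat_mul]
        congr 1
        field_simp
    _ ≤ 3 := by
        have := Real.exp_one_lt_d9
        linarith

lemma card_explored_le' [Fintype X] (E : Finset (Finset X)) (D : ℕ) (hD1 : 1 ≤ D)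
    (hD : ∀ x, (E.filter (fun S => x ∈ S)).card ≤ D) (r : ℕ) :
    ∀ (k : ℕ) (P U : Finset X), P ⊆ U → r ≤ P.card + k →
      by classical exact
      (((univ : Finset (Finset X)).filter (fun A => A.card = r ∧ Explored E P U A)).card : ℝ)
        ≤ 3 ^ k * (D:ℝ) ^ ((r:ℤ) - U.card) := by
  classical
  have hDpos : (0:ℝ) < D := by exact_mod_cast hD1
  have hD1' : (1:ℝ) ≤ D := by exact_mod_cast hD1
  -- when the family is contained in a singleton
  have hsingle : ∀ (k : ℕ) (P U : Finset X),
      (univ : Finset (Finset X)).filter (fun A => A.card = r ∧ Explored E P U A) ⊆ {U} →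
      (((univ : Finset (Finset X)).filter (fun A => A.card = r ∧ Explored E P U A)).card : ℝ)
        ≤ 3 ^ k * (D:ℝ) ^ ((r:ℤ) - U.card) := by
    intro k P U hsub
    rcases ((univ : Finset (Finset X)).filter
      (fun A => A.card = r ∧ Explored E P U A)).eq_empty_or_nonempty with h | h
    · rw [h]; simp; positivity
    · obtain ⟨A, hA⟩ := h
      have hAU : A = U := mem_singleton.1 (hsub hA)
      have hr : U.card = r := by rw [← hAU]; exact (mem_filter.1 hA).2.1
      have hc : (((univ : Finset (Finset X)).filter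
          (fun A => A.card = r ∧ Explored E P U A)).card : ℝ) ≤ 1 := by
        have := card_le_card hsub
        rw [card_singleton] at this
        exact_mod_cast this
      rw [hr, sub_self, zpow_zero, mul_one]
      exact le_trans hc (one_le_pow₀ (by norm_num))
  intro k
  induction k with
  | zero =>
    intro P U hPU hr
    apply hsingle
    intro A hA
    rw [mem_filter] at hA
    rw [mem_singleton]
    have h1 : U ⊆ A := hA.2.2.1
    have h2 : A.card ≤ U.card := by
      have := card_le_card hPU
      omega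
    exact (eq_of_subset_of_card_le h1 h2).symm
  | succ k ih =>
    intro P U hPU hr
    by_cases hEq : P = U
    · subst hEq
      apply hsingle
      intro A hA
      rw [mem_filter] at hA
      rw [mem_singleton]
      exact explored_eq E P A hA.2.2
    · obtain ⟨v, hvU, hvP⟩ : ∃ v ∈ U, v ∉ P := by
        by_contra hcon
        push Not at hcon
        exact hEq (Subset.antisymm hPU hcon)
      set Ev := E.filter (fun S => v ∈ S) with hEv
      set idx := Ev.powerset.filter (fun 𝒟 => U.card + 𝒟.card ≤ (U ∪ 𝒟.biUnion id).card) with hidx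
      have hsub : (univ : Finset (Finset X)).filter (fun A => A.card = r ∧ Explored E P U A)
          ⊆ idx.biUnion (fun 𝒟 =>
            (univ : Finset (Finset X)).filter
              (fun A => A.card = r ∧ Explored E (insert v P) (U ∪ 𝒟.biUnion id) A)) := by
        intro A hA
        rw [mem_filter] at hA
        rw [mem_biUnion]
        obtain ⟨𝒟', hsub', hun, hcard⟩ :=
          exists_small_subfamily (E.filter (fun S => v ∈ S ∧ S ⊆ A)) U
        refine ⟨𝒟', ?_, ?_⟩
        · rw [hidx, mem_filter, mem_powerset]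
          refine ⟨?_, hcard⟩
          intro S hS
          have := mem_filter.1 (hsub' hS)
          exact mem_filter.2 ⟨this.1, this.2.1⟩
        · rw [mem_filter, hun]
          exact ⟨mem_univ _, hA.2.1, explored_step E P U A hA.2.2 v⟩
      have hterm : ∀ 𝒟 ∈ idx, (((univ : Finset (Finset X)).filter
              (fun A => A.card = r ∧ Explored E (insert v P) (U ∪ 𝒟.biUnion id) A)).card : ℝ)
          ≤ 3 ^ k * (D:ℝ) ^ ((r:ℤ) - U.card) * ((D:ℝ)⁻¹) ^ 𝒟.card := by
        intro 𝒟 h𝒟
        have h1 := ih (insert v P) (U ∪ 𝒟.biUnion id)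
          (insert_subset (mem_union_left _ hvU) (hPU.trans subset_union_left))
          (by rw [card_insert_of_notMem hvP]; omega)
        refine le_trans h1 ?_
        rw [mul_assoc]
        apply mul_le_mul_of_nonneg_left _ (by positivity)
        have hc := (mem_filter.1 h𝒟).2
        have e : (D:ℝ) ^ ((r:ℤ) - U.card) * ((D:ℝ)⁻¹) ^ 𝒟.card
            = (D:ℝ) ^ ((r:ℤ) - U.card - 𝒟.card) := by
          rw [zpow_sub₀ hDpos.ne' ((r:ℤ) - U.card), zpow_natCast, inv_pow, div_eq_mul_inv]
        rw [e]
        apply zpow_le_zpow_right₀ hD1'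
        have : ((U.card + 𝒟.card : ℕ) : ℤ) ≤ ((U ∪ 𝒟.biUnion id).card : ℤ) := by exact_mod_cast hc
        push_cast at this
        linarith
      have hcount : (((univ : Finset (Finset X)).filter
          (fun A => A.card = r ∧ Explored E P U A)).card : ℝ)
          ≤ ∑ 𝒟 ∈ idx, 3 ^ k * (D:ℝ) ^ ((r:ℤ) - U.card) * ((D:ℝ)⁻¹) ^ 𝒟.card := by
        have h1 : ((univ : Finset (Finset X)).filter (fun A => A.card = r ∧ Explored E P U A)).card
            ≤ ∑ 𝒟 ∈ idx, ((univ : Finset (Finset X)).filter
              (fun A => A.card = r ∧ Explored E (insert v P) (U ∪ 𝒟.biUnion id) A)).card :=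
          le_trans (card_le_card hsub) card_biUnion_le
        have h2 : (((univ : Finset (Finset X)).filter
            (fun A => A.card = r ∧ Explored E P U A)).card : ℝ)
            ≤ ∑ 𝒟 ∈ idx, (((univ : Finset (Finset X)).filter
              (fun A => A.card = r ∧ Explored E (insert v P) (U ∪ 𝒟.biUnion id) A)).card : ℝ) := by
          exact_mod_cast h1
        exact le_trans h2 (sum_le_sum hterm)
      refine le_trans hcount ?_
      rw [← mul_sum]
      have hs1 : ∑ 𝒟 ∈ idx, ((D:ℝ)⁻¹) ^ 𝒟.card ≤ ∑ 𝒟 ∈ Ev.powerset, ((D:ℝ)⁻¹) ^ 𝒟.card := by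
        apply sum_le_sum_of_subset_of_nonneg (filter_subset _ _)
        intro 𝒟 _ _
        positivity
      have hs2 : ∑ 𝒟 ∈ Ev.powerset, ((D:ℝ)⁻¹) ^ 𝒟.card = (1 + (D:ℝ)⁻¹) ^ Ev.card := by
        have := prod_one_add (f := fun _ : Finset X => (D:ℝ)⁻¹) Ev
        rw [prod_const] at this
        rw [this]
        apply sum_congr rfl
        intro 𝒟 _
        rw [prod_const]
      have hs3 := one_add_inv_pow_le D Ev.card hD1 (hD v)
      have hpos : (0:ℝ) ≤ 3 ^ k * (D:ℝ) ^ ((r:ℤ) - U.card) := by positivity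
      calc 3 ^ k * (D:ℝ) ^ ((r:ℤ) - U.card) * ∑ 𝒟 ∈ idx, ((D:ℝ)⁻¹) ^ 𝒟.card
          ≤ 3 ^ k * (D:ℝ) ^ ((r:ℤ) - U.card) * 3 := by
            apply mul_le_mul_of_nonneg_left _ hpos
            linarith [hs1, hs2, hs3]
        _ = 3 ^ (k+1) * (D:ℝ) ^ ((r:ℤ) - U.card) := by ring


end Vale.Agent.Lib.P034
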