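import Vale.Agent.Lib.P034.Cluster
import Vale.Agent.Lib.P034.Explore

namespace Vale.Agent.Lib.P034

open Finset

variable {X : Type*} [DecidableEq X]

omit [DecidableEq X] in
lemma IsSmall.mono {F : Set (Finset X)} {p p' : ℝ} (h : IsSmall F p) (h0 : 0 ≤ p') (hle : p' ≤ p) :
    IsSmall F p' := by
  obtain ⟨G, hG, hc⟩ := h
  refine ⟨G, hG, le_trans ?_ hc⟩
  unfold cost
  apply sum_le_sum
  intro S _
  exact pow_le_pow_left₀ h0 hle _

/-- the number of clusters of size `|S| + m` containing a given nonempty set `S` -/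
lemma card_clusters_superset_le [Fintype X] (E : Finset (Finset X)) (D : ℕ) (hD1 : 1 ≤ D)
    (hD : ∀ x, (E.filter (fun S => x ∈ S)).card ≤ D) (S : Finset X) (hS : S.Nonempty) (m : ℕ) :
    by classical exact
    ((((univ : Finset (Finset X)).filter (fun A => IsCluster E A)).filter
        (fun A => S ⊆ A ∧ A.card = S.card + m)).card : ℝ) ≤ 3 ^ (S.card + m) * (D:ℝ) ^ m := by
  classical
  have hsub : ((univ : Finset (Finset X)).filter (fun A => IsCluster E A)).filter
        (fun A => S ⊆ A ∧ A.card = S.card + m)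
      ⊆ (univ : Finset (Finset X)).filter
          (fun A => A.card = S.card + m ∧ Explored E ∅ S A) := by
    intro A hA
    rw [mem_filter] at hA
    have hcl := (mem_filter.1 hA.1).2
    rw [mem_filter]
    refine ⟨mem_univ _, hA.2.2, hA.2.1, ?_, ?_⟩
    · intro v hv
      simp at hv
    · intro W hSW hWA hW
      exact hcl.2 W hWA (hS.mono hSW) hW
  have h1 := card_explored_le' E D hD1 hD (S.card + m) (S.card + m) ∅ S (empty_subset _) (by simp)
  have h2 : (D:ℝ) ^ (((S.card + m : ℕ) : ℤ) - S.card) = (D:ℝ) ^ m := by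
    rw [← zpow_natCast]
    congr 1
    push_cast
    ring
  rw [h2] at h1
  refine le_trans ?_ h1
  have := card_le_card hsub
  convert (Nat.cast_le (α := ℝ)).2 this

/-- cluster sums at a subcritical density -/
lemma sum_clusters_superset_le [Fintype X] (E : Finset (Finset X)) (D : ℕ) (hD1 : 1 ≤ D)
    (hD : ∀ x, (E.filter (fun S => x ∈ S)).card ≤ D) (p q : ℝ) (hq0 : 0 ≤ q)
    (hqp : 6 * q ≤ p) (hqD : 6 * D * q ≤ 1) (S : Finset X) (hS : S.Nonempty) :
    by classical exact
    ∑ A ∈ ((univ : Finset (Finset X)).filter (fun A => IsCluster E A)).filter (fun A => S ⊆ A),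
      q ^ A.card ≤ p ^ S.card := by
  classical
  set R := (univ : Finset (Finset X)).filter (fun A => IsCluster E A) with hR
  set s := S.card with hs
  have hs1 : 1 ≤ s := card_pos.2 hS
  set M := R.sup card + 1 with hM
  have hDpos : (0:ℝ) < D := by exact_mod_cast hD1
  have hmaps : ∀ A ∈ R.filter (fun A => S ⊆ A), A.card ∈ Ico s M := by
    intro A hA
    rw [mem_filter] at hA
    rw [mem_Ico]
    refine ⟨card_le_card hA.2, ?_⟩
    have : A.card ≤ R.sup card := le_sup (f := card) hA.1
    omega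
  have step2 : ∑ A ∈ R.filter (fun A => S ⊆ A), q ^ A.card
      = ∑ r ∈ Ico s M, ∑ A ∈ (R.filter (fun A => S ⊆ A)) with A.card = r, q ^ A.card :=
    (sum_fiberwise_of_maps_to hmaps _).symm
  rw [step2, sum_Ico_eq_sum_range]
  have step3 : ∀ m ∈ range (M - s),
      ∑ A ∈ (R.filter (fun A => S ⊆ A)) with A.card = s + m, q ^ A.card
        ≤ (3 * q) ^ s * (1/2:ℝ) ^ m := by
    intro m _
    have e1 : ∑ A ∈ (R.filter (fun A => S ⊆ A)) with A.card = s + m, q ^ A.card
        = ∑ A ∈ (R.filter (fun A => S ⊆ A)) with A.card = s + m, q ^ (s + m) := by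
      apply sum_congr rfl
      intro A hA
      rw [(mem_filter.1 hA).2]
    rw [e1, sum_const, nsmul_eq_mul, filter_filter]
    have hc := card_clusters_superset_le E D hD1 hD S hS m
    have hc' : ((R.filter (fun A => S ⊆ A ∧ A.card = s + m)).card : ℝ)
        ≤ 3 ^ (s + m) * (D:ℝ) ^ m := by
      convert hc
    calc _ ≤ 3 ^ (s + m) * (D:ℝ) ^ m * q ^ (s + m) :=
          mul_le_mul_of_nonneg_right hc' (by positivity)
      _ = (3 * q) ^ s * (3 * D * q) ^ m := by
          rw [pow_add, pow_add, mul_pow, mul_pow, mul_pow]; ring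
      _ ≤ (3 * q) ^ s * (1/2:ℝ) ^ m := by
          apply mul_le_mul_of_nonneg_left _ (by positivity)
          apply pow_le_pow_left₀ (by positivity)
          linarith
  refine le_trans (sum_le_sum step3) ?_
  rw [← mul_sum]
  have hgeo : ∑ m ∈ range (M - s), (1/2:ℝ) ^ m ≤ 2 := by
    have := geom_sum_Ico_le_of_lt_one (x := (1/2:ℝ)) (m := 0) (n := M - s) (by norm_num) (by norm_num)
    simp only [pow_zero] at this
    rw [← range_eq_Ico] at this
    norm_num at this ⊢
    exact this
  calc (3 * q) ^ s * ∑ m ∈ range (M - s), (1/2:ℝ) ^ m ≤ (3 * q) ^ s * 2 :=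
        mul_le_mul_of_nonneg_left hgeo (by positivity)
    _ ≤ (3 * q) ^ s * 2 ^ s := by
        apply mul_le_mul_of_nonneg_left _ (by positivity)
        calc (2:ℝ) = 2 ^ 1 := by norm_num
          _ ≤ 2 ^ s := pow_le_pow_right₀ (by norm_num) hs1
    _ = (6 * q) ^ s := by rw [← mul_pow]; ring_nf
    _ ≤ p ^ s := pow_le_pow_left₀ (by positivity) hqp s

/-- rounding for fractional covers supported on the clusters of a hypergraph of maximum degree `D` -/
theorem small_of_supportedOn_clusters [Fintype X]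
    (F : Set (Finset X)) (E : Finset (Finset X)) (D : ℕ) (hD1 : 1 ≤ D)
    (hD : ∀ x, (E.filter (fun S => x ∈ S)).card ≤ D)
    (p : ℝ) (hp0 : 0 ≤ p) (g : Finset X → ℝ) (hg : IsFracCover g F)
    (hsupp : ∀ S, g S ≠ 0 → S = ∅ ∨ IsCluster E S) (hcost : fcost g p ≤ 1/2) :
    IsSmall F (min p (1 / D) / 2^34) := by
  classical
  have hD1' : (1:ℝ) ≤ D := by exact_mod_cast hD1
  have hDpos : (0:ℝ) < D := by linarith
  set R : Finset (Finset X) := univ.filter (fun A => IsCluster E A) with hR
  have hne : ∅ ∉ R := by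
    intro h
    have := (mem_filter.1 h).2.1
    simp at this
  have hU : ClosedUnderIntersectingUnions R := by
    intro A hA B hB hAB
    exact mem_filter.2 ⟨mem_univ _, isCluster_union E A B (mem_filter.1 hA).2 (mem_filter.1 hB).2 hAB⟩
  have hs : SupportedOn g R := by
    intro S hS
    rcases hsupp S hS with h | h
    · exact Or.inl h
    · exact Or.inr (mem_filter.2 ⟨mem_univ _, h⟩)
  set q := min p (1 / D) / 6 with hq
  have hmin0 : 0 ≤ min p (1 / (D:ℝ)) := le_min hp0 (by positivity)
  have hq0 : 0 ≤ q := by positivity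
  have hqp : 6 * q ≤ p := by
    rw [hq]
    have := min_le_left p (1 / (D:ℝ))
    linarith
  have hqD : 6 * D * q ≤ 1 := by
    rw [hq]
    have := min_le_right p (1 / (D:ℝ))
    have h2 : (D:ℝ) * min p (1 / (D:ℝ)) ≤ D * (1 / D) := mul_le_mul_of_nonneg_left this hDpos.le
    have h3 : (D:ℝ) * (1 / D) = 1 := by field_simp
    nlinarith
  have hH : ∀ S ∈ R, ∑ A ∈ R.filter (fun A => S ⊆ A), q ^ A.card ≤ p ^ S.card := by
    intro S hS
    have := sum_clusters_superset_le E D hD1 hD p q hq0 hqp hqD S (mem_filter.1 hS).2.1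
    convert this
  have := small_of_weighted F R hne hU p q hp0 hq0 hH g hg hs hcost
  apply this.mono (by positivity)
  rw [hq, div_div]
  apply div_le_div_of_nonneg_left hmin0 (by positivity)
  norm_num

/-- rounding for fractional covers whose support has maximum degree `D` -/
theorem small_of_bounded_degree [Fintype X]
    (F : Set (Finset X)) (D : ℕ) (hD1 : 1 ≤ D)
    (p : ℝ) (hp0 : 0 ≤ p) (g : Finset X → ℝ) (hg : IsFracCover g F)
    (hD : ∀ x, ((univ : Finset (Finset X)).filter (fun S => g S ≠ 0 ∧ x ∈ S)).card ≤ D)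
    (hcost : fcost g p ≤ 1/2) :
    IsSmall F (min p (1 / D) / 2^34) := by
  classical
  apply small_of_supportedOn_clusters F (univ.filter (fun S => g S ≠ 0)) D hD1 _ p hp0 g hg _ hcost
  · intro x
    rw [filter_filter]
    exact hD x
  · intro S hS
    rcases S.eq_empty_or_nonempty with h | h
    · exact Or.inl h
    · exact Or.inr (isCluster_of_mem _ S (mem_filter.2 ⟨mem_univ _, hS⟩) h)

end Vale.Agent.Lib.P034
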